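import Mathlib

namespace Vale.Agent.Results.P317.KPavingDensity

open Set

variable {α : Type*}

/-- exchange with a base is governed by the fundamental circuit -/
lemma isBase_exchange_iff (M : Matroid α) {B : Set α} (hB : M.IsBase B) {e f : α}
    (heE : e ∈ M.E) (heB : e ∉ B) (hfB : f ∈ B) :
    M.IsBase (insert e (B \ {f})) ↔ f ∈ M.fundCircuit e B := by
  have hcl : e ∈ M.closure B := by rw [hB.closure_eq]; exact heE
  have hfe : f ≠ e := fun h => heB (h ▸ hfB)
  rw [hB.indep.mem_fundCircuit_iff hcl heB, ← insert_sdiff_singleton_comm hfe.symm]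
  constructor
  · intro h; exact h.indep
  · intro h; exact hB.exchange_isBase_of_indep heB h

/-- simultaneous exchange along a `diagonal` family of exchanges -/
lemma multi_exchange {ι : Type*} [DecidableEq ι] (M : Matroid α) (x y : ι → α) (T : Finset ι) :
    ∀ B : Set α, M.IsBase B → (∀ i ∈ T, x i ∈ B) → (∀ i ∈ T, y i ∉ B) →
      Set.InjOn x T → Set.InjOn y T →
      (∀ i ∈ T, ∀ j ∈ T, (M.IsBase (insert (y j) (B \ {x i})) ↔ i = j)) →
      M.IsBase ((B \ x '' T) ∪ y '' T) := by
  induction T using Finset.induction_on with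
  | empty =>
    intro B hB _ _ _ _ _
    simpa using hB
  | insert a T' ha ih =>
    intro B hB hx hy hxi hyi h
    have haT : a ∈ insert a T' := Finset.mem_insert_self _ _
    have hsub : ∀ i ∈ T', i ∈ insert a T' := fun i hi => Finset.mem_insert_of_mem hi
    have hB1 : M.IsBase (insert (y a) (B \ {x a})) := (h a haT a haT).2 rfl
    have hne : ∀ i ∈ T', i ≠ a := fun i hi hia => ha (hia ▸ hi)
    have hxne : ∀ i ∈ T', x i ≠ x a := fun i hi hxe =>
      hne i hi (hxi (by exact_mod_cast hsub i hi) (by exact_mod_cast haT) hxe)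
    have hyne : ∀ i ∈ T', y i ≠ y a := fun i hi hye =>
      hne i hi (hyi (by exact_mod_cast hsub i hi) (by exact_mod_cast haT) hye)
    have hyE : ∀ i ∈ insert a T', y i ∈ M.E := fun i hi =>
      ((h i hi i hi).2 rfl).subset_ground (mem_insert _ _)
    have key := ih (insert (y a) (B \ {x a})) hB1
      (fun i hi => Or.inr ⟨hx i (hsub i hi), hxne i hi⟩)
      (fun i hi hmem => by
        rcases hmem with h1 | h1
        · exact hyne i hi h1
        · exact hy i (hsub i hi) h1.1)
      (hxi.mono (by intro i hi; exact_mod_cast hsub i (by exact_mod_cast hi)))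
      (hyi.mono (by intro i hi; exact_mod_cast hsub i (by exact_mod_cast hi)))
      (by
        intro i hi j hj
        have hyjB1 : y j ∉ insert (y a) (B \ {x a}) := by
          intro hmem
          rcases hmem with h1 | h1
          · exact hyne j hj h1
          · exact hy j (hsub j hj) h1.1
        have hxiB1 : x i ∈ insert (y a) (B \ {x a}) := Or.inr ⟨hx i (hsub i hi), hxne i hi⟩
        rw [isBase_exchange_iff M hB1 (hyE j (hsub j hj)) hyjB1 hxiB1,
          ← h i (hsub i hi) j (hsub j hj),
          isBase_exchange_iff M hB (hyE j (hsub j hj)) (hy j (hsub j hj)) (hx i (hsub i hi))]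
        -- the two fundamental circuits coincide
        have hC : M.IsCircuit (M.fundCircuit (y j) B) :=
          hB.fundCircuit_isCircuit (hyE j (hsub j hj)) (hy j (hsub j hj))
        have hxa : x a ∉ M.fundCircuit (y j) B := by
          intro hmem
          have := (isBase_exchange_iff M hB (hyE j (hsub j hj)) (hy j (hsub j hj))
            (hx a haT)).2 hmem
          exact hne j hj ((h a haT j (hsub j hj)).1 this).symm
        have hCsub : M.fundCircuit (y j) B ⊆ insert (y j) (insert (y a) (B \ {x a})) := by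
          intro z hz
          rcases M.fundCircuit_subset_insert (y j) B hz with h1 | h1
          · exact Or.inl h1
          · exact Or.inr (Or.inr ⟨h1, fun hzx => hxa (hzx ▸ hz)⟩)
        rw [← hC.eq_fundCircuit_of_subset hB1.indep hCsub])
    have hset : (insert (y a) (B \ {x a}) \ x '' (T' : Set ι)) ∪ y '' (T' : Set ι)
        = (B \ x '' ((insert a T' : Finset ι) : Set ι)) ∪ y '' ((insert a T' : Finset ι) : Set ι) := by
      have hya : y a ∉ x '' (T' : Set ι) := by
        rintro ⟨i, hi, hie⟩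
        exact hy a haT (hie ▸ hx i (hsub i (by exact_mod_cast hi)))
      ext z
      simp only [Finset.coe_insert, image_insert_eq, mem_union, mem_sdiff, mem_insert_iff,
        mem_singleton_iff]
      constructor
      · rintro (⟨(h1 | ⟨h1, h2⟩), h3⟩ | h1)
        · exact Or.inr (Or.inl h1)
        · exact Or.inl ⟨h1, fun h4 => h4.elim h2 h3⟩
        · exact Or.inr (Or.inr h1)
      · rintro (⟨h1, h2⟩ | (h1 | h1))
        · exact Or.inl ⟨Or.inr ⟨h1, fun h3 => h2 (Or.inl h3)⟩, fun h3 => h2 (Or.inr h3)⟩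
        · exact Or.inl ⟨Or.inl h1, h1 ▸ hya⟩
        · exact Or.inr h1
    rw [← hset]
    exact key


/-- validity of a successor structure `(η, σ)` on a finite set `Z ⊆ B \ S` -/
def Valid (M₁ M₂ : Matroid α) (B S : Set α) (Z : Finset α) (η σ : α → α) : Prop :=
  ∀ z ∈ Z, η z ∈ S \ B ∧ σ z ∈ Z ∧ M₁.IsBase (insert (η z) (B \ {z})) ∧
    M₂.IsBase (insert (η z) (B \ {σ z}))

/-- If every element of `S \ B` can be exchanged in `M₂` against an element of `B \ S`, then there is
a common base strictly closer to `S`. -/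
lemma exists_closer [Finite α] (M₁ M₂ : Matroid α) {B S : Set α} (hB1 : M₁.IsBase B)
    (hB2 : M₂.IsBase B) (hS : M₁.IsBase S) (hne : (B \ S).Nonempty)
    (hex : ∀ y ∈ S \ B, ∃ x ∈ B \ S, M₂.IsBase (insert y (B \ {x}))) :
    ∃ B', M₁.IsBase B' ∧ M₂.IsBase B' ∧ (S \ B').ncard < (S \ B).ncard := by
  classical
  have hfinX : (B \ S).Finite := Set.toFinite _
  -- the family of admissible sets
  let P : Finset α → Prop := fun Z => Z.Nonempty ∧ (Z : Set α) ⊆ B \ S ∧
    ∃ η σ : α → α, Valid M₁ M₂ B S Z η σ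
  have hP0 : ∃ Z, P Z := by
    refine ⟨hfinX.toFinset, ?_, ?_, ?_⟩
    · simpa using hne
    · simp
    · have h1 : ∀ z : α, ∃ y : α, z ∈ B \ S → (y ∈ S \ B ∧ M₁.IsBase (insert y (B \ {z}))) := by
        intro z
        by_cases hz : z ∈ B \ S
        · obtain ⟨y, hy, hb⟩ := hB1.exchange hS hz
          exact ⟨y, fun _ => ⟨hy, hb⟩⟩
        · exact ⟨z, fun h => absurd h hz⟩
      choose η hη using h1
      have h2 : ∀ z : α, ∃ x : α, z ∈ B \ S → (x ∈ B \ S ∧ M₂.IsBase (insert (η z) (B \ {x}))) := by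
        intro z
        by_cases hz : z ∈ B \ S
        · obtain ⟨x, hx, hb⟩ := hex (η z) (hη z hz).1
          exact ⟨x, fun _ => ⟨hx, hb⟩⟩
        · exact ⟨z, fun h => absurd h hz⟩
      choose σ hσ using h2
      refine ⟨η, σ, ?_⟩
      intro z hz
      have hz' : z ∈ B \ S := by simpa using hz
      exact ⟨(hη z hz').1, by simpa using (hσ z hz').1, (hη z hz').2, (hσ z hz').2⟩
  -- choose an admissible set of minimum cardinality
  obtain ⟨Z, hPZ, hmin⟩ : ∃ Z, P Z ∧ ∀ Z', P Z' → Z.card ≤ Z'.card := by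
    have hex' : ∃ n, ∃ Z, P Z ∧ Z.card = n := by
      obtain ⟨Z, hZ⟩ := hP0; exact ⟨Z.card, Z, hZ, rfl⟩
    obtain ⟨Z, hZ, hcard⟩ := Nat.find_spec hex'
    refine ⟨Z, hZ, fun Z' hZ' => ?_⟩
    rw [hcard]
    exact Nat.find_min' hex' ⟨Z', hZ', rfl⟩
  obtain ⟨hZne, hZsub, η, σ, hval⟩ := hPZ
  -- any valid structure on `Z` has injective successor map
  have hinj : ∀ η' σ' : α → α, Valid M₁ M₂ B S Z η' σ' → Set.InjOn σ' Z := by
    intro η' σ' hv
    by_contra hnot
    have hlt : (Z.image σ').card < Z.card := by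
      refine lt_of_le_of_ne Finset.card_image_le ?_
      intro heq
      exact hnot (Finset.card_image_iff.1 heq)
    have himsub : Z.image σ' ⊆ Z := by
      intro w hw
      obtain ⟨z, hz, rfl⟩ := Finset.mem_image.1 hw
      exact (hv z hz).2.1
    have hP' : P (Z.image σ') := by
      refine ⟨hZne.image _, ?_, η', σ', ?_⟩
      · intro w hw
        exact hZsub (himsub (by exact_mod_cast hw))
      · intro w hw
        have hwZ := himsub hw
        exact ⟨(hv w hwZ).1, Finset.mem_image_of_mem _ hwZ, (hv w hwZ).2.2.1, (hv w hwZ).2.2.2⟩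
    have := hmin _ hP'
    omega
  have hσinj := hinj η σ hval
  have hσsurj : ∀ w ∈ Z, ∃ u ∈ Z, σ u = w := by
    have himg : Z.image σ = Z := by
      apply Finset.eq_of_subset_of_card_le
      · intro w hw
        obtain ⟨z, hz, rfl⟩ := Finset.mem_image.1 hw
        exact (hval z hz).2.1
      · rw [Finset.card_image_of_injOn hσinj]
    intro w hw
    rw [← himg] at hw
    obtain ⟨u, hu, rfl⟩ := Finset.mem_image.1 hw
    exact ⟨u, hu, rfl⟩
  -- no chords of the first kind
  have hb : ∀ z ∈ Z, ∀ z' ∈ Z, M₁.IsBase (insert (η z') (B \ {z})) → z = z' := by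
    intro z hz z' hz' hbase
    by_contra hzz
    have hv : Valid M₁ M₂ B S Z (Function.update η z (η z')) (Function.update σ z (σ z')) := by
      intro w hw
      by_cases hwz : w = z
      · subst hwz
        simp only [Function.update_self]
        exact ⟨(hval z' hz').1, (hval z' hz').2.1, hbase, (hval z' hz').2.2.2⟩
      · simp only [Function.update_of_ne hwz]
        exact hval w hw
    have := hinj _ _ hv (by exact_mod_cast hz) (by exact_mod_cast hz')
      (by simp [Function.update_of_ne (Ne.symm hzz)])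
    exact hzz this
  -- no chords of the second kind
  have hc : ∀ z ∈ Z, ∀ w ∈ Z, M₂.IsBase (insert (η z) (B \ {w})) → w = σ z := by
    intro z hz w hw hbase
    obtain ⟨u, hu, rfl⟩ := hσsurj w hw
    by_cases huz : u = z
    · rw [huz]
    · exfalso
      have hv : Valid M₁ M₂ B S Z η (Function.update σ z (σ u)) := by
        intro v hv'
        by_cases hvz : v = z
        · subst hvz
          simp only [Function.update_self]
          exact ⟨(hval v hv').1, (hval u hu).2.1, (hval v hv').2.2.1, hbase⟩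
        · simp only [Function.update_of_ne hvz]
          exact hval v hv'
      have := hinj _ _ hv (by exact_mod_cast hz) (by exact_mod_cast hu)
        (by simp [Function.update_of_ne huz])
      exact huz this.symm
  have hηinj : Set.InjOn η Z := by
    intro z hz z' hz' heq
    have hz1 : z ∈ Z := by exact_mod_cast hz
    have hz2 : z' ∈ Z := by exact_mod_cast hz'
    apply hb z hz1 z' hz2
    rw [← heq]
    exact (hval z hz1).2.2.1
  have hZB : ∀ z ∈ Z, z ∈ B := fun z hz => (hZsub (by exact_mod_cast hz)).1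
  have hηB : ∀ z ∈ Z, η z ∉ B := fun z hz => (hval z hz).1.2
  -- the new base in `M₁`
  have hnew1 : M₁.IsBase ((B \ (fun z => z) '' (Z : Set α)) ∪ η '' (Z : Set α)) := by
    apply multi_exchange M₁ (fun z => z) η Z B hB1 hZB hηB
    · intro a _ b _ h; exact h
    · exact hηinj
    · intro i hi j hj
      constructor
      · intro h; exact hb i hi j hj h
      · rintro rfl; exact (hval i hi).2.2.1
  have hnew2 : M₂.IsBase ((B \ σ '' (Z : Set α)) ∪ η '' (Z : Set α)) := by
    apply multi_exchange M₂ σ η Z B hB2 (fun i hi => hZB _ (hval i hi).2.1) hηB hσinj hηinj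
    intro i hi j hj
    constructor
    · intro h
      have := hc j hj (σ i) (hval i hi).2.1 h
      exact hσinj (by exact_mod_cast hi) (by exact_mod_cast hj) this
    · rintro rfl; exact (hval i hi).2.2.2
  have himg : σ '' (Z : Set α) = (fun z => z) '' (Z : Set α) := by
    ext w
    simp only [mem_image, Finset.mem_coe, exists_eq_right]
    constructor
    · rintro ⟨u, hu, rfl⟩; exact (hval u hu).2.1
    · intro hw; exact hσsurj w hw
  rw [himg] at hnew2
  refine ⟨_, hnew1, hnew2, ?_⟩
  apply Set.ncard_lt_ncard _ (Set.toFinite _)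
  obtain ⟨z0, hz0⟩ := hZne
  constructor
  · intro w hw
    refine ⟨hw.1, fun hwB => hw.2 (Or.inl ⟨hwB, ?_⟩)⟩
    rintro ⟨z, hz, rfl⟩
    exact (hZsub hz).2 hw.1
  · intro hsub
    have h1 : η z0 ∈ S \ B := (hval z0 hz0).1
    have h2 := hsub h1
    exact h2.2 (Or.inr ⟨z0, by exact_mod_cast hz0, rfl⟩)


/-- Every base of `M₁` is within exchange distance `d` of a common base. -/
lemma exists_near [Finite α] (M₁ M₂ : Matroid α) (h₂ : M₂.E = Set.univ) (r d : ℕ)
    (hcard : ∀ B, M₁.IsBase B → B.ncard = r)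
    (hpav : ∀ C, M₂.IsCircuit C → r < C.ncard + d)
    (hne : ∃ B, M₁.IsBase B ∧ M₂.IsBase B) {S : Set α} (hS : M₁.IsBase S) :
    ∃ B, M₁.IsBase B ∧ M₂.IsBase B ∧ (S \ B).ncard ≤ d := by
  classical
  have hex' : ∃ n, ∃ B, (M₁.IsBase B ∧ M₂.IsBase B) ∧ (S \ B).ncard = n := by
    obtain ⟨B, hB⟩ := hne; exact ⟨_, B, hB, rfl⟩
  obtain ⟨B, ⟨hB1, hB2⟩, hBn⟩ := Nat.find_spec hex'
  refine ⟨B, hB1, hB2, ?_⟩
  by_contra hgt
  push Not at hgt
  have hcomm : (S \ B).ncard = (B \ S).ncard := hS.ncard_sdiff_comm hB1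
  have hne' : (B \ S).Nonempty := by
    rw [← Set.ncard_pos (Set.toFinite _)]; omega
  have hexch : ∀ y ∈ S \ B, ∃ x ∈ B \ S, M₂.IsBase (insert y (B \ {x})) := by
    intro y hy
    have hyE : y ∈ M₂.E := by rw [h₂]; exact mem_univ _
    have hC : M₂.IsCircuit (M₂.fundCircuit y B) := hB2.fundCircuit_isCircuit hyE hy.2
    have hlarge := hpav _ hC
    by_contra hcon
    push Not at hcon
    have hsub : M₂.fundCircuit y B ⊆ insert y (B ∩ S) := by
      intro z hz
      rcases M₂.fundCircuit_subset_insert y B hz with h1 | h1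
      · exact Or.inl h1
      · by_cases hzS : z ∈ S
        · exact Or.inr ⟨h1, hzS⟩
        · exfalso
          exact hcon z ⟨h1, hzS⟩ ((isBase_exchange_iff M₂ hB2 hyE hy.2 h1).2 hz)
    have h1 : (M₂.fundCircuit y B).ncard ≤ (insert y (B ∩ S)).ncard :=
      Set.ncard_le_ncard hsub (Set.toFinite _)
    have h2 : (insert y (B ∩ S)).ncard ≤ (B ∩ S).ncard + 1 := Set.ncard_insert_le _ _
    have h3 : (B ∩ S).ncard + (B \ S).ncard = B.ncard := Set.ncard_inter_add_ncard_sdiff_eq_ncard B S (Set.toFinite _)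
    have h4 := hcard B hB1
    omega
  obtain ⟨B', hB1', hB2', hlt⟩ := exists_closer M₁ M₂ hB1 hB2 hS hne' hexch
  have := Nat.find_min' hex' ⟨B', ⟨hB1', hB2'⟩, rfl⟩
  omega


/-- **Density of common bases when one matroid has large girth (is `d`-paving).**
Let `M₁`, `M₂` be matroids of rank `r` on a finite ground set with `n` elements, such that every
circuit of `M₂` has more than `r - d` elements, and with at least one common base.  Then
`|B(M₁)| ≤ (∑_{i ≤ d} C(r,i) C(n-r,i)) · N(M₁,M₂)`. -/
theorem result [Fintype α] (M₁ M₂ : Matroid α) (h₁ : M₁.E = Set.univ) (h₂ : M₂.E = Set.univ)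
    (r d : ℕ) (hr₁ : M₁.eRank = r) (hr₂ : M₂.eRank = r)
    (hpav : ∀ C, M₂.IsCircuit C → r < C.ncard + d)
    (hne : ∃ B, M₁.IsBase B ∧ M₂.IsBase B) :
    {B | M₁.IsBase B}.ncard ≤
      (∑ i ∈ Finset.range (d + 1), r.choose i * (Fintype.card α - r).choose i) *
        {B | M₁.IsBase B ∧ M₂.IsBase B}.ncard := by
  classical
  have hcardB : ∀ B, M₁.IsBase B → B.ncard = r := by
    intro B hB
    have h := hB.encard_eq_eRank
    rw [hr₁] at h
    rw [Set.ncard_def, h]; rfl
  set N : Set (Set α) := {B | M₁.IsBase B ∧ M₂.IsBase B} with hN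
  let g : Set α → Finset (Set α) := fun B =>
    (Finset.range (d + 1)).biUnion (fun i =>
      ((B.toFinset.powersetCard i ×ˢ (Bᶜ).toFinset.powersetCard i).image
        (fun p : Finset α × Finset α => (B \ (p.1 : Set α)) ∪ (p.2 : Set α))))
  have hsub : {B | M₁.IsBase B} ⊆ ((N.toFinset.biUnion g : Finset (Set α)) : Set (Set α)) := by
    intro S hS
    have hS1 : M₁.IsBase S := hS
    obtain ⟨B, hB1, hB2, hle⟩ := exists_near M₁ M₂ h₂ r d hcardB hpav hne hS1
    simp only [Finset.coe_biUnion, Set.mem_iUnion, Finset.mem_coe, Set.mem_toFinset]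
    refine ⟨B, ⟨hB1, hB2⟩, ?_⟩
    simp only [g, Finset.mem_biUnion, Finset.mem_range, Finset.mem_image, Finset.mem_product,
      Finset.mem_powersetCard, Prod.exists]
    refine ⟨(S \ B).ncard, by omega, (B \ S).toFinset, (S \ B).toFinset, ⟨⟨?_, ?_⟩, ?_, ?_⟩, ?_⟩
    · intro z hz
      simp only [Set.mem_toFinset] at hz ⊢
      exact hz.1
    · rw [← Set.ncard_eq_toFinset_card']
      exact (hS1.ncard_sdiff_comm hB1).symm
    · intro z hz
      simp only [Set.mem_toFinset, mem_compl_iff] at hz ⊢
      exact hz.2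
    · rw [← Set.ncard_eq_toFinset_card']
    · ext z
      simp only [Set.coe_toFinset, mem_union, mem_sdiff, not_and, not_not]
      constructor
      · rintro (⟨h1, h2⟩ | ⟨h1, _⟩)
        · exact h2 h1
        · exact h1
      · intro hz
        by_cases hzB : z ∈ B
        · exact Or.inl ⟨hzB, fun _ => hz⟩
        · exact Or.inr ⟨hz, hzB⟩
  have hg : ∀ B ∈ N.toFinset, (g B).card ≤
      ∑ i ∈ Finset.range (d + 1), r.choose i * (Fintype.card α - r).choose i := by
    intro B hB
    rw [Set.mem_toFinset] at hB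
    have hBr : B.ncard = r := hcardB B hB.1
    have e1 : B.toFinset.card = r := by rw [← Set.ncard_eq_toFinset_card']; exact hBr
    have e2 : (Bᶜ).toFinset.card = Fintype.card α - r := by
      rw [Set.toFinset_compl, Finset.card_compl, e1]
    refine le_trans Finset.card_biUnion_le ?_
    apply Finset.sum_le_sum
    intro i _
    refine le_trans Finset.card_image_le ?_
    rw [Finset.card_product, Finset.card_powersetCard, Finset.card_powersetCard, e1, e2]
  calc {B | M₁.IsBase B}.ncard
      ≤ ((N.toFinset.biUnion g : Finset (Set α)) : Set (Set α)).ncard :=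
        Set.ncard_le_ncard hsub (Set.toFinite _)
    _ = (N.toFinset.biUnion g).card := Set.ncard_coe_finset _
    _ ≤ N.toFinset.card * _ := Finset.card_biUnion_le_card_mul _ _ _ hg
    _ = N.ncard * _ := by rw [← Set.ncard_eq_toFinset_card']
    _ = _ := by ring

end Vale.Agent.Results.P317.KPavingDensity
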