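import Mathlib
import Vale.Agent.Results.P317.KPavingDensity

/-!
# P317: common bases are dense among the bases of `M₁` that are nearly independent in `M₂`

No hypothesis on `M₂`.  Let `M₁`, `M₂` be matroids of rank `r` on a finite ground set with `n`
elements that have a common base.  Call a base `S` of `M₁` `d`-good if every circuit of `M₂`
contained in `S` has more than `r - d` elements.  Then every `d`-good base is within `d` exchanges
of a common base, and the number of `d`-good bases is at most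
`(∑_{i ≤ d} C(r,i) C(n-r,i)) · N(M₁,M₂)`.
-/

namespace Vale.Agent.Results.P317.A_LocalDensity

open Set Vale.Agent.Results.P317.KPavingDensity

variable {α : Type*}

/-- A base of `M₁` all of whose `M₂`-circuits are large is within exchange distance `d` of a common
base. -/
lemma exists_near_local [Finite α] (M₁ M₂ : Matroid α) (h₂ : M₂.E = Set.univ) (r d : ℕ)
    (hcard : ∀ B, M₁.IsBase B → B.ncard = r)
    (hne : ∃ B, M₁.IsBase B ∧ M₂.IsBase B) {S : Set α} (hS : M₁.IsBase S)
    (hloc : ∀ C, C ⊆ S → M₂.IsCircuit C → r < C.ncard + d) :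
    ∃ B, M₁.IsBase B ∧ M₂.IsBase B ∧ (S \ B).ncard ≤ d := by
  classical
  have hex' : ∃ n, ∃ B, (M₁.IsBase B ∧ M₂.IsBase B) ∧ (S \ B).ncard = n := by
    obtain ⟨B, hB⟩ := hne; exact ⟨_, B, hB, rfl⟩
  obtain ⟨B, ⟨hB1, hB2⟩, hBn⟩ := Nat.find_spec hex'
  refine ⟨B, hB1, hB2, ?_⟩
  by_contra hgt
  push Not at hgt
  have hcomm : (S \ B).ncard = (B \ S).ncard := hS.ncard_sdiff_comm hB1
  have hne' : (B \ S).Nonempty := by
    rw [← Set.ncard_pos (Set.toFinite _)]; omega
  have hexch : ∀ y ∈ S \ B, ∃ x ∈ B \ S, M₂.IsBase (insert y (B \ {x})) := by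
    intro y hy
    have hyE : y ∈ M₂.E := by rw [h₂]; exact mem_univ _
    have hC : M₂.IsCircuit (M₂.fundCircuit y B) := hB2.fundCircuit_isCircuit hyE hy.2
    by_contra hcon
    push Not at hcon
    have hsub : M₂.fundCircuit y B ⊆ insert y (B ∩ S) := by
      intro z hz
      rcases M₂.fundCircuit_subset_insert y B hz with h1 | h1
      · exact Or.inl h1
      · by_cases hzS : z ∈ S
        · exact Or.inr ⟨h1, hzS⟩
        · exfalso
          exact hcon z ⟨h1, hzS⟩ ((isBase_exchange_iff M₂ hB2 hyE hy.2 h1).2 hz)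
    have hsubS : M₂.fundCircuit y B ⊆ S := by
      intro z hz
      rcases hsub hz with h1 | h1
      · rw [h1]; exact hy.1
      · exact h1.2
    have hlarge := hloc _ hsubS hC
    have h1 : (M₂.fundCircuit y B).ncard ≤ (insert y (B ∩ S)).ncard :=
      Set.ncard_le_ncard hsub (Set.toFinite _)
    have h2 : (insert y (B ∩ S)).ncard ≤ (B ∩ S).ncard + 1 := Set.ncard_insert_le _ _
    have h3 : (B ∩ S).ncard + (B \ S).ncard = B.ncard :=
      Set.ncard_inter_add_ncard_sdiff_eq_ncard B S (Set.toFinite _)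
    have h4 := hcard B hB1
    omega
  obtain ⟨B', hB1', hB2', hlt⟩ := exists_closer M₁ M₂ hB1 hB2 hS hne' hexch
  have := Nat.find_min' hex' ⟨B', ⟨hB1', hB2'⟩, rfl⟩
  omega

/-- local density of common bases, for two arbitrary matroids -/
theorem local_density [Fintype α] (M₁ M₂ : Matroid α) (h₁ : M₁.E = Set.univ) (h₂ : M₂.E = Set.univ)
    (r d : ℕ) (hr₁ : M₁.eRank = r) (hr₂ : M₂.eRank = r)
    (hne : ∃ B, M₁.IsBase B ∧ M₂.IsBase B) :
    (∀ S, M₁.IsBase S → (∀ C, C ⊆ S → M₂.IsCircuit C → r < C.ncard + d) →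
      ∃ B, M₁.IsBase B ∧ M₂.IsBase B ∧ (S \ B).ncard ≤ d) ∧
    {S | M₁.IsBase S ∧ ∀ C, C ⊆ S → M₂.IsCircuit C → r < C.ncard + d}.ncard ≤
      (∑ i ∈ Finset.range (d + 1), r.choose i * (Fintype.card α - r).choose i) *
        {B | M₁.IsBase B ∧ M₂.IsBase B}.ncard := by
  classical
  have hcardB : ∀ B, M₁.IsBase B → B.ncard = r := by
    intro B hB
    have h := hB.encard_eq_eRank
    rw [hr₁] at h
    rw [Set.ncard_def, h]; rfl
  have hnear : ∀ S, M₁.IsBase S → (∀ C, C ⊆ S → M₂.IsCircuit C → r < C.ncard + d) →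
      ∃ B, M₁.IsBase B ∧ M₂.IsBase B ∧ (S \ B).ncard ≤ d :=
    fun S hS hloc => exists_near_local M₁ M₂ h₂ r d hcardB hne hS hloc
  refine ⟨hnear, ?_⟩
  set N : Set (Set α) := {B | M₁.IsBase B ∧ M₂.IsBase B} with hN
  let g : Set α → Finset (Set α) := fun B =>
    (Finset.range (d + 1)).biUnion (fun i =>
      ((B.toFinset.powersetCard i ×ˢ (Bᶜ).toFinset.powersetCard i).image
        (fun p : Finset α × Finset α => (B \ (p.1 : Set α)) ∪ (p.2 : Set α))))
  have hsub : {S | M₁.IsBase S ∧ ∀ C, C ⊆ S → M₂.IsCircuit C → r < C.ncard + d} ⊆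
      ((N.toFinset.biUnion g : Finset (Set α)) : Set (Set α)) := by
    intro S hS
    have hS1 : M₁.IsBase S := hS.1
    obtain ⟨B, hB1, hB2, hle⟩ := hnear S hS1 hS.2
    simp only [Finset.coe_biUnion, Set.mem_iUnion, Finset.mem_coe, Set.mem_toFinset]
    refine ⟨B, ⟨hB1, hB2⟩, ?_⟩
    simp only [g, Finset.mem_biUnion, Finset.mem_range, Finset.mem_image, Finset.mem_product,
      Finset.mem_powersetCard, Prod.exists]
    refine ⟨(S \ B).ncard, by omega, (B \ S).toFinset, (S \ B).toFinset, ⟨⟨?_, ?_⟩, ?_, ?_⟩, ?_⟩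
    · intro z hz
      simp only [Set.mem_toFinset] at hz ⊢
      exact hz.1
    · rw [← Set.ncard_eq_toFinset_card']
      exact (hS1.ncard_sdiff_comm hB1).symm
    · intro z hz
      simp only [Set.mem_toFinset, mem_compl_iff] at hz ⊢
      exact hz.2
    · rw [← Set.ncard_eq_toFinset_card']
    · ext z
      simp only [Set.coe_toFinset, mem_union, mem_sdiff, not_and, not_not]
      constructor
      · rintro (⟨h1, h2⟩ | ⟨h1, _⟩)
        · exact h2 h1
        · exact h1
      · intro hz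
        by_cases hzB : z ∈ B
        · exact Or.inl ⟨hzB, fun _ => hz⟩
        · exact Or.inr ⟨hz, hzB⟩
  have hg : ∀ B ∈ N.toFinset, (g B).card ≤
      ∑ i ∈ Finset.range (d + 1), r.choose i * (Fintype.card α - r).choose i := by
    intro B hB
    rw [Set.mem_toFinset] at hB
    have hBr : B.ncard = r := hcardB B hB.1
    have e1 : B.toFinset.card = r := by rw [← Set.ncard_eq_toFinset_card']; exact hBr
    have e2 : (Bᶜ).toFinset.card = Fintype.card α - r := by
      rw [Set.toFinset_compl, Finset.card_compl, e1]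
    refine le_trans Finset.card_biUnion_le ?_
    apply Finset.sum_le_sum
    intro i _
    refine le_trans Finset.card_image_le ?_
    rw [Finset.card_product, Finset.card_powersetCard, Finset.card_powersetCard, e1, e2]
  calc {S | M₁.IsBase S ∧ ∀ C, C ⊆ S → M₂.IsCircuit C → r < C.ncard + d}.ncard
      ≤ ((N.toFinset.biUnion g : Finset (Set α)) : Set (Set α)).ncard :=
        Set.ncard_le_ncard hsub (Set.toFinite _)
    _ = (N.toFinset.biUnion g).card := Set.ncard_coe_finset _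
    _ ≤ N.toFinset.card * _ := Finset.card_biUnion_le_card_mul _ _ _ hg
    _ = N.ncard * _ := by rw [← Set.ncard_eq_toFinset_card']
    _ = _ := by ring

/-- **Local density of common bases, for two arbitrary matroids of rank `r` with a common base.**
(1) a base `S` of `M₁` such that every circuit of `M₂` inside `S` has more than `r - d` elements is
within `d` exchanges of a common base; (2) the number of such `S` is at most
`(∑_{i ≤ d} C(r,i) C(n-r,i)) · N(M₁,M₂)`; (3) at most `(1 + r (n - r)) · N(M₁,M₂)` bases of `M₁` are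
circuits of `M₂`; (4) if every base of a matroid `M₃` is a base or a circuit of `M₂` (for instance
`M₃` arises from `M₂` by relaxing circuit-hyperplanes), then
`N(M₁,M₃) ≤ (2 + r (n - r)) · N(M₁,M₂)`. -/
theorem result [Fintype α] (M₁ M₂ : Matroid α) (h₁ : M₁.E = Set.univ) (h₂ : M₂.E = Set.univ)
    (r : ℕ) (hr₁ : M₁.eRank = r) (hr₂ : M₂.eRank = r)
    (hne : ∃ B, M₁.IsBase B ∧ M₂.IsBase B) :
    (∀ d : ℕ, ∀ S, M₁.IsBase S → (∀ C, C ⊆ S → M₂.IsCircuit C → r < C.ncard + d) →
      ∃ B, M₁.IsBase B ∧ M₂.IsBase B ∧ (S \ B).ncard ≤ d) ∧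
    (∀ d : ℕ, {S | M₁.IsBase S ∧ ∀ C, C ⊆ S → M₂.IsCircuit C → r < C.ncard + d}.ncard ≤
      (∑ i ∈ Finset.range (d + 1), r.choose i * (Fintype.card α - r).choose i) *
        {B | M₁.IsBase B ∧ M₂.IsBase B}.ncard) ∧
    {S | M₁.IsBase S ∧ M₂.IsCircuit S}.ncard ≤
      (1 + r * (Fintype.card α - r)) * {B | M₁.IsBase B ∧ M₂.IsBase B}.ncard ∧
    (∀ M₃ : Matroid α, (∀ B, M₃.IsBase B → M₂.IsBase B ∨ M₂.IsCircuit B) →
      {B | M₁.IsBase B ∧ M₃.IsBase B}.ncard ≤
        (2 + r * (Fintype.card α - r)) * {B | M₁.IsBase B ∧ M₂.IsBase B}.ncard) := by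
  have h3 : {S | M₁.IsBase S ∧ M₂.IsCircuit S}.ncard ≤
      (1 + r * (Fintype.card α - r)) * {B | M₁.IsBase B ∧ M₂.IsBase B}.ncard := ?_
  · refine ⟨fun d => (local_density M₁ M₂ h₁ h₂ r d hr₁ hr₂ hne).1,
      fun d => (local_density M₁ M₂ h₁ h₂ r d hr₁ hr₂ hne).2, h3, fun M₃ hM₃ => ?_⟩
    have hsub : {B | M₁.IsBase B ∧ M₃.IsBase B} ⊆
        {B | M₁.IsBase B ∧ M₂.IsBase B} ∪ {S | M₁.IsBase S ∧ M₂.IsCircuit S} := by
      intro B hB
      rcases hM₃ B hB.2 with h | h
      · exact Or.inl ⟨hB.1, h⟩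
      · exact Or.inr ⟨hB.1, h⟩
    have h4 := Set.ncard_le_ncard hsub (Set.toFinite _)
    have h5 := Set.ncard_union_le {B | M₁.IsBase B ∧ M₂.IsBase B}
      {S | M₁.IsBase S ∧ M₂.IsCircuit S}
    have h6 : (2 + r * (Fintype.card α - r)) * {B | M₁.IsBase B ∧ M₂.IsBase B}.ncard =
        {B | M₁.IsBase B ∧ M₂.IsBase B}.ncard +
          (1 + r * (Fintype.card α - r)) * {B | M₁.IsBase B ∧ M₂.IsBase B}.ncard := by ring
    omega
  have h := (local_density M₁ M₂ h₁ h₂ r 1 hr₁ hr₂ hne).2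
  have hsum : (∑ i ∈ Finset.range (1 + 1), r.choose i * (Fintype.card α - r).choose i)
      = 1 + r * (Fintype.card α - r) := by
    simp [Finset.sum_range_succ]
  rw [hsum] at h
  refine le_trans (Set.ncard_le_ncard ?_ (Set.toFinite _)) h
  intro S hS
  refine ⟨hS.1, fun C hCS hC => ?_⟩
  have hCeq : C = S := hC.eq_of_subset_isCircuit hS.2 hCS
  have hSr : S.ncard = r := by
    have h' := hS.1.encard_eq_eRank
    rw [hr₁] at h'
    rw [Set.ncard_def, h']; rfl
  rw [hCeq, hSr]
  omega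

end Vale.Agent.Results.P317.A_LocalDensity
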