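import Mathlib

namespace Vale.Agent.Results.P317.PavingDensity

open Set

variable {α : Type*}

/-- reverse exchange: an element of a base can be brought into another base -/
lemma exists_exchange_in (M : Matroid α) {S B : Set α} (hS : M.IsBase S) (hB : M.IsBase B)
    {e : α} (heB : e ∈ B) (heS : e ∉ S) :
    ∃ f ∈ S, M.IsBase (insert e (S \ {f})) := by
  have heE : e ∈ M.E := hB.subset_ground heB
  have hC : M.IsCircuit (M.fundCircuit e S) := hS.fundCircuit_isCircuit heE heS
  have hnot : ¬ (M.fundCircuit e S ⊆ B) := fun h => hC.not_indep (hB.indep.subset h)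
  obtain ⟨f, hfC, hfB⟩ := Set.not_subset.1 hnot
  have hfe : f ≠ e := fun h => hfB (h ▸ heB)
  have hfS : f ∈ S := by
    have := M.fundCircuit_subset_insert e S hfC
    rcases this with h | h
    · exact absurd h hfe
    · exact h
  have hcl : e ∈ M.closure S := by rw [hS.closure_eq]; exact heE
  have hI : M.Indep (insert e S \ {f}) := (hS.indep.mem_fundCircuit_iff hcl heS).1 hfC
  refine ⟨f, hfS, ?_⟩
  have := hS.exchange_isBase_of_indep' hfS heS hI
  rwa [← insert_sdiff_singleton_comm hfe.symm] at this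

lemma key [Finite α] (M₁ M₂ : Matroid α) {S B0 : Set α} (hS1 : M₁.IsBase S)
    (hSc : M₂.IsCircuit S) (hB1 : M₁.IsBase B0) (hB2 : M₂.IsBase B0) :
    ∃ e, e ∉ S ∧ ∃ f ∈ S, M₁.IsBase (insert e (S \ {f})) ∧ M₂.IsBase (insert e (S \ {f})) := by
  have hcard : S.ncard = B0.ncard := hS1.ncard_eq_ncard_of_isBase hB1
  have hex : ∃ e ∈ B0, e ∉ M₂.closure S := by
    by_contra hcon
    push Not at hcon
    obtain ⟨f0, hf0⟩ := hSc.nonempty
    have hind : M₂.Indep (S \ {f0}) := hSc.sdiff_singleton_indep hf0
    have hclos : M₂.closure (S \ {f0}) = M₂.closure S := hSc.closure_sdiff_singleton_eq f0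
    have hsub : M₂.E ⊆ M₂.closure (S \ {f0}) := by
      rw [hclos, ← hB2.closure_eq]
      exact M₂.closure_subset_closure_of_subset_closure hcon
    have hbase : M₂.IsBase (S \ {f0}) := hind.isBase_of_ground_subset_closure hsub
    have h1 := hbase.ncard_eq_ncard_of_isBase hB2
    have h2 : (S \ {f0}).ncard + 1 = S.ncard := Set.ncard_sdiff_singleton_add_one hf0 (Set.toFinite _)
    omega
  obtain ⟨e, heB, hecl⟩ := hex
  have heS : e ∉ S := fun h => hecl (M₂.subset_closure S hSc.subset_ground h)
  obtain ⟨f, hfS, hb1⟩ := exists_exchange_in M₁ hS1 hB1 heB heS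
  refine ⟨e, heS, f, hfS, hb1, ?_⟩
  have hind : M₂.Indep (S \ {f}) := hSc.sdiff_singleton_indep hfS
  have hclos : M₂.closure (S \ {f}) = M₂.closure S := hSc.closure_sdiff_singleton_eq f
  have heE : e ∈ M₂.E := hB2.subset_ground heB
  have hins : M₂.Indep (insert e (S \ {f})) := by
    rw [hind.insert_indep_iff]
    left
    exact ⟨heE, by rw [hclos]; exact hecl⟩
  obtain ⟨B', hB', hsub⟩ := hins.exists_isBase_superset
  have h1 : B'.ncard = B0.ncard := hB'.ncard_eq_ncard_of_isBase hB2
  have h2 : (insert e (S \ {f})).ncard = B0.ncard := hb1.ncard_eq_ncard_of_isBase hB1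
  have : insert e (S \ {f}) = B' :=
    Set.eq_of_subset_of_ncard_le hsub (by omega) (Set.toFinite _)
  rw [this]; exact hB'


/-- **Density of common bases when one matroid is paving.**  Let `M₁`, `M₂` be matroids of rank `r`
on a finite ground set with `n` elements, `M₂` paving (every circuit has at least `r` elements),
with at least one common base.  Then at least a `1 / (1 + r (n - r))` fraction of the bases of `M₁`
are common bases. -/
theorem result [Fintype α] (M₁ M₂ : Matroid α) (h₁ : M₁.E = Set.univ) (h₂ : M₂.E = Set.univ)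
    (r : ℕ) (hr₁ : M₁.eRank = r) (hr₂ : M₂.eRank = r)
    (hpav : ∀ C, M₂.IsCircuit C → r ≤ C.ncard)
    (hne : ∃ B, M₁.IsBase B ∧ M₂.IsBase B) :
    {B | M₁.IsBase B}.ncard ≤
      (1 + r * (Fintype.card α - r)) * {B | M₁.IsBase B ∧ M₂.IsBase B}.ncard := by
  classical
  obtain ⟨B0, hB1, hB2⟩ := hne
  have hcardB : ∀ B, M₁.IsBase B → B.ncard = r := by
    intro B hB
    have h := hB.encard_eq_eRank
    rw [hr₁] at h
    rw [Set.ncard_def, h]; rfl
  set N : Set (Set α) := {B | M₁.IsBase B ∧ M₂.IsBase B} with hN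
  set A : Set (Set α) := {B | M₁.IsBase B ∧ ¬ M₂.IsBase B} with hA
  have hunion : {B | M₁.IsBase B} = N ∪ A := by
    ext B
    simp only [hN, hA, mem_ofPred_eq, mem_union]
    tauto
  let g : Set α → Finset (Set α) := fun B =>
    ((B.toFinset ×ˢ (Bᶜ).toFinset).image (fun p : α × α => insert p.2 (B \ {p.1})))
  have hAsub : A ⊆ ((N.toFinset.biUnion g : Finset (Set α)) : Set (Set α)) := by
    intro S hS
    obtain ⟨hS1, hS2⟩ := hS
    -- `S` is a circuit of `M₂`
    have hSr : S.ncard = r := hcardB S hS1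
    have hSdep : ¬ M₂.Indep S := by
      intro hind
      obtain ⟨B', hB', hsub⟩ := hind.exists_isBase_superset
      have h1 : B'.ncard = B0.ncard := hB'.ncard_eq_ncard_of_isBase hB2
      have h2 : B0.ncard = r := hcardB B0 hB1
      have : S = B' := Set.eq_of_subset_of_ncard_le hsub (by omega) (Set.toFinite _)
      exact hS2 (this ▸ hB')
    have hSD : M₂.Dep S := by
      rw [Matroid.dep_iff]
      exact ⟨hSdep, by rw [h₂]; exact subset_univ _⟩
    obtain ⟨C, hCS, hC⟩ := hSD.exists_isCircuit_subset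
    have hCeq : C = S :=
      Set.eq_of_subset_of_ncard_le hCS (by have := hpav C hC; omega) (Set.toFinite _)
    subst hCeq
    obtain ⟨e, heS, f, hfS, hb1, hb2⟩ := key M₁ M₂ hS1 hC hB1 hB2
    simp only [Finset.coe_biUnion, Set.mem_iUnion, Finset.mem_coe, Set.mem_toFinset]
    refine ⟨insert e (C \ {f}), ⟨hb1, hb2⟩, ?_⟩
    simp only [g, Finset.mem_image, Finset.mem_product, Set.mem_toFinset, Prod.exists]
    refine ⟨e, f, ⟨mem_insert _ _, ?_⟩, ?_⟩
    · simp only [mem_compl_iff, mem_insert_iff, mem_sdiff, mem_singleton_iff, not_or, not_and,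
        not_not]
      exact ⟨fun h => heS (h ▸ hfS), fun _ => trivial⟩
    · ext x
      simp only [mem_insert_iff, mem_sdiff, mem_singleton_iff]
      constructor
      · rintro (rfl | ⟨(rfl | ⟨hx, _⟩), hxe⟩)
        · exact hfS
        · exact absurd rfl hxe
        · exact hx
      · intro hx
        by_cases hxf : x = f
        · exact Or.inl hxf
        · exact Or.inr ⟨Or.inr ⟨hx, hxf⟩, fun h => heS (h ▸ hx)⟩
  have hg : ∀ B ∈ N.toFinset, (g B).card ≤ r * (Fintype.card α - r) := by
    intro B hB
    rw [Set.mem_toFinset] at hB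
    have hBr : B.ncard = r := hcardB B hB.1
    calc (g B).card ≤ (B.toFinset ×ˢ (Bᶜ).toFinset).card := Finset.card_image_le
      _ = B.toFinset.card * (Bᶜ).toFinset.card := Finset.card_product _ _
      _ = r * (Fintype.card α - r) := by
        have e1 : B.toFinset.card = r := by rw [← Set.ncard_eq_toFinset_card']; exact hBr
        have e2 : (Bᶜ).toFinset.card = Fintype.card α - r := by
          rw [Set.toFinset_compl, Finset.card_compl, e1]
        rw [e1, e2]
  have hAcard : A.ncard ≤ N.ncard * (r * (Fintype.card α - r)) := by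
    calc A.ncard ≤ ((N.toFinset.biUnion g : Finset (Set α)) : Set (Set α)).ncard :=
          Set.ncard_le_ncard hAsub (Set.toFinite _)
      _ = (N.toFinset.biUnion g).card := Set.ncard_coe_finset _
      _ ≤ N.toFinset.card * (r * (Fintype.card α - r)) :=
          Finset.card_biUnion_le_card_mul _ _ _ hg
      _ = N.ncard * (r * (Fintype.card α - r)) := by rw [← Set.ncard_eq_toFinset_card']
  calc {B | M₁.IsBase B}.ncard = (N ∪ A).ncard := by rw [hunion]
    _ ≤ N.ncard + A.ncard := Set.ncard_union_le _ _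
    _ ≤ N.ncard + N.ncard * (r * (Fintype.card α - r)) := by omega
    _ = (1 + r * (Fintype.card α - r)) * N.ncard := by ring

end Vale.Agent.Results.P317.PavingDensity
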